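import Vale.Agent.P183.Defs

/-! P183: unary algebras and coset actions. -/

namespace Vale.Agent.P183B

open Vale.Agent.P183

/-- Representability by a finite unary algebra, for any relation `le` on `L`. -/
def URep {L : Type} (le : L → L → Prop) : Prop :=
  ∃ (X : Type) (_ : Finite X) (_ : Nonempty X) (ι : Type) (_ : Finite ι) (f : ι → X → X)
    (e : L → Setoid X), (∀ a b, e a ≤ e b ↔ le a b) ∧
      ∀ r : Setoid X, (∀ i x y, r x y → r (f i x) (f i y)) ↔ ∃ a, e a = r

theorem URep.rep {L : Type} [PartialOrder L] (h : URep (L := L) (· ≤ ·)) : Representable L := by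
  obtain ⟨X, hX, hn, ι, hι, f, e, h1, h2⟩ := h
  obtain ⟨m, ⟨q⟩⟩ := Finite.exists_equiv_fin ι
  refine ⟨X, hX, hn, m, fun _ => 1, fun i x => f (q.symm i) (x 0), ⟨OrderIso.symm ?_⟩⟩
  refine RelIso.ofSurjective (OrderEmbedding.ofMapLEIff
    (fun a => ⟨e a, fun i x y h => (h2 _).2 ⟨a, rfl⟩ _ _ _ (h 0)⟩) h1) ?_
  rintro ⟨r, hr⟩
  obtain ⟨a, ha⟩ := (h2 r).1 fun i x y h => by
    simpa using hr (q i) (fun _ => x) (fun _ => y) fun _ => h
  exact ⟨a, Subtype.ext ha⟩

theorem URep.equiv {L M : Type} {le : L → L → Prop} {le' : M → M → Prop} (h : URep le)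
    (q : M → L) (hq : Function.Surjective q) (hle : ∀ a b, le (q a) (q b) ↔ le' a b) :
    URep le' := by
  obtain ⟨X, hX, hn, ι, hι, f, e, h1, h2⟩ := h
  refine ⟨X, hX, hn, ι, hι, f, fun a => e (q a), fun a b => (h1 _ _).trans (hle a b),
    fun r => (h2 r).trans ⟨?_, fun ⟨a, ha⟩ => ⟨_, ha⟩⟩⟩
  rintro ⟨a, ha⟩
  obtain ⟨b, rfl⟩ := hq a
  exact ⟨b, ha⟩

/-- An interval of subgroups, cut down by endomorphisms, is a congruence lattice. -/
theorem urep_grp {L : Type} {le : L → L → Prop} (G : Type) [Group G] [Finite G] (H : Subgroup G)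
    (ι : Type) [Finite ι] (φ : ι → G →* G) (hφ : ∀ j, ∀ g ∈ H, φ j g ∈ H)
    (e : L → Subgroup G) (h1 : ∀ a b, e a ≤ e b ↔ le a b)
    (h2 : ∀ K : Subgroup G, (H ≤ K ∧ ∀ j, ∀ g ∈ K, φ j g ∈ K) ↔ ∃ a, e a = K) : URep le := by
  have hH : ∀ a, H ≤ e a := fun a => ((h2 _).2 ⟨a, rfl⟩).1
  let ψ : ι → G ⧸ H → G ⧸ H := fun j => Quotient.map' (φ j) fun x y h => by
    rw [QuotientGroup.leftRel_apply] at h ⊢
    simpa using hφ j _ h
  let E : L → Setoid (G ⧸ H) := fun a => Setoid.ker (Subgroup.quotientMapOfLE (hH a))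
  have hE : ∀ a (x y : G), E a (x : G ⧸ H) (y : G ⧸ H) ↔ x⁻¹ * y ∈ e a := fun a x y => by
    rw [← QuotientGroup.eq]
    rfl
  refine ⟨G ⧸ H, inferInstance, inferInstance, G ⊕ ι, inferInstance,
    Sum.elim (fun g x => g • x) ψ, E, fun a b => ?_, fun r => ⟨fun hr => ?_, ?_⟩⟩
  · rw [← h1]
    refine ⟨fun h g hg => ?_, fun h x y => ?_⟩
    · simpa using (hE b 1 g).1 (h ((hE a 1 g).2 (by simpa using hg)))
    · induction x using QuotientGroup.induction_on
      induction y using QuotientGroup.induction_on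
      exact fun k => (hE b _ _).2 (h ((hE a _ _).1 k))
  · have hm : ∀ g x y : G, r (x : G ⧸ H) (y : G ⧸ H) →
        r ((g * x : G) : G ⧸ H) ((g * y : G) : G ⧸ H) := fun g x y => hr (Sum.inl g) _ _
    let K : Subgroup G :=
      { carrier := {g | r ((1 : G) : G ⧸ H) (g : G ⧸ H)}
        mul_mem' := fun {a b} ha hb => r.trans ha (by simpa using hm a _ _ hb)
        one_mem' := r.refl _
        inv_mem' := fun {a} ha => r.symm (by simpa using hm a⁻¹ _ _ ha) }
    obtain ⟨a, ha⟩ := (h2 K).1 ⟨fun g hg => by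
      have : ((1 : G) : G ⧸ H) = g := QuotientGroup.eq.2 (by simpa using hg)
      change r ((1 : G) : G ⧸ H) (g : G ⧸ H)
      rw [this], fun j g hg => by
        have := hr (Sum.inr j) _ _ hg
        change r ((φ j 1 : G) : G ⧸ H) ((φ j g : G) : G ⧸ H) at this
        rwa [map_one] at this⟩
    refine ⟨a, Setoid.ext fun x y => ?_⟩
    induction x using QuotientGroup.induction_on
    induction y using QuotientGroup.induction_on
    rename_i x y
    rw [hE, ha]
    exact ⟨fun h => by simpa using hm x _ _ h, fun h => by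
      have := hm x⁻¹ _ _ h
      rwa [inv_mul_cancel] at this⟩
  · rintro ⟨a, rfl⟩ i x y
    induction x using QuotientGroup.induction_on
    induction y using QuotientGroup.induction_on
    rename_i x y
    intro h
    rw [hE] at h
    rcases i with g | j
    · exact (hE a (g * x) (g * y)).2 (by simpa [mul_assoc] using h)
    · exact (hE a (φ j x) (φ j y)).2 (by simpa using ((h2 _).2 ⟨a, rfl⟩).2 j _ h)

end Vale.Agent.P183B
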