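import Vale.Agent.P183B.Basic

/-! P183: a checker for the congruence lattice of a finite unary algebra. -/

namespace Vale.Agent.P183B

/-- Table lookup. -/
def gt (c x : ℕ) : ℕ := (c >>> (8 * x)) % 256

/-- Bounded universal quantifier. -/
def allB (n : ℕ) (p : ℕ → Bool) : Bool := Nat.rec true (fun i r => r && p i) n

/-- Bounded existential quantifier. -/
def anyB (n : ℕ) (p : ℕ → Bool) : Bool := Nat.rec false (fun i r => r || p i) n

theorem allB_iff {n : ℕ} {p : ℕ → Bool} : allB n p = true ↔ ∀ i < n, p i = true := by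
  induction n with
  | zero => simp [allB]
  | succ n ih =>
    change (allB n p && p n) = true ↔ _
    rw [Bool.and_eq_true, ih, Nat.forall_lt_succ_right]

theorem anyB_iff {n : ℕ} {p : ℕ → Bool} : anyB n p = true ↔ ∃ i < n, p i = true := by
  induction n with
  | zero => simp [anyB]
  | succ n ih =>
    change (anyB n p || p n) = true ↔ _
    rw [Bool.or_eq_true, ih, Nat.exists_lt_succ_right]

/-- Evaluate the argument first. -/
def frc {β : Type} (n : ℕ) (k : ℕ → β) : β := Nat.casesOn n (k 0) fun m => k m.succ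

@[simp] theorem frc_eq {β : Type} (n : ℕ) (k : ℕ → β) : frc n k = k n := by cases n <;> rfl

theorem gt_set {p w u x : ℕ} (hw : w < 256) :
    gt (p ^^^ (w <<< (8 * u))) x = gt p x ^^^ if x = u then w else 0 := by
  refine Nat.eq_of_testBit_eq fun i => ?_
  have e : (256 : ℕ) = 2 ^ 8 := rfl
  simp only [gt, e, Nat.testBit_mod_two_pow, Nat.testBit_shiftRight, Nat.testBit_xor,
    Nat.testBit_shiftLeft]
  have hb : ∀ j, 8 ≤ j → w.testBit j = false := fun j hj =>
    Nat.testBit_lt_two_pow (hw.trans_le (e ▸ Nat.pow_le_pow_right two_pos hj))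
  by_cases hi : i < 8
  · rcases lt_trichotomy x u with h | rfl | h
    · simp [hi, h.ne, show ¬ 8 * u ≤ 8 * x + i by omega]
    · simp [hi]
    · simp [hi, h.ne', hb (8 * x + i - 8 * u) (by omega)]
  · by_cases h : x = u <;> simp [hi, h, hb i (by omega)]

/-- The root of `x`. -/
def fnd (p k : ℕ) : ℕ → ℕ :=
  Nat.rec (fun x => x) (fun _ r x => frc (gt p x) fun d => bif d.beq 0 then x else frc (d ^^^ x) r) k

/-- Closure of a list of pairs. -/
def clo (F : List ℕ) (k t : ℕ) : List (ℕ × ℕ) → ℕ → ℕ :=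
  Nat.rec (fun _ p => p) (fun _ r st p => List.casesOn st p fun z st =>
    frc z.1 fun a => frc z.2 fun b => frc (fnd p k a) fun u => frc (fnd p k b) fun v =>
      bif !u.beq v && (gt p u).beq 0 && (u ^^^ v).ble 255 then
        frc (p ^^^ ((u ^^^ v) <<< (8 * u))) (r (F.map (fun c => (gt c a, gt c b)) ++ st))
      else r st p) t

/-- The invariant. -/
def Inv (θ : Setoid ℕ) (p : ℕ) : Prop := ∀ x, θ x (gt p x ^^^ x)

theorem inv_zero (θ : Setoid ℕ) : Inv θ 0 := fun x => by simp [gt]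

theorem fnd_rel {θ : Setoid ℕ} {p : ℕ} (h : Inv θ p) (k x : ℕ) : θ x (fnd p k x) := by
  induction k generalizing x with
  | zero => exact θ.refl' x
  | succ k ih =>
    change θ x (frc (gt p x) fun d => bif d.beq 0 then x else frc (d ^^^ x) (fnd p k))
    simp only [frc_eq]
    cases (gt p x).beq 0
    exacts [θ.trans' (h x) (ih _), θ.refl' x]

theorem clo_inv {θ : Setoid ℕ} {F : List ℕ} (hF : ∀ c ∈ F, ∀ a b, θ a b → θ (gt c a) (gt c b))
    (k t : ℕ) (st : List (ℕ × ℕ)) (p : ℕ) (hs : ∀ z ∈ st, θ z.1 z.2) (h : Inv θ p) :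
    Inv θ (clo F k t st p) := by
  induction t generalizing st p with
  | zero => exact h
  | succ t ih =>
    cases st with
    | nil => exact h
    | cons z st =>
      change Inv θ (frc z.1 fun a => frc z.2 fun b => frc (fnd p k a) fun u =>
        frc (fnd p k b) fun v => bif !u.beq v && (gt p u).beq 0 && (u ^^^ v).ble 255 then
        frc (p ^^^ ((u ^^^ v) <<< (8 * u))) (clo F k t (F.map (fun c => (gt c a, gt c b)) ++ st))
        else clo F k t st p)
      simp only [frc_eq]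
      have hz := hs z List.mem_cons_self
      have hs' : ∀ y ∈ st, θ y.1 y.2 := fun y hy => hs y (List.mem_cons_of_mem _ hy)
      rw [Bool.cond_eq_ite]
      split_ifs with c
      · simp only [Bool.and_eq_true, Nat.beq_eq, Nat.ble_eq] at c
        refine ih _ _ (fun y hy => ?_) fun x => ?_
        · rcases List.mem_append.1 hy with hy | hy
          · obtain ⟨c, hc, rfl⟩ := List.mem_map.1 hy
            exact hF c hc _ _ hz
          · exact hs' y hy
        · rw [gt_set (by omega)]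
          split_ifs with e
          · rw [e, c.1.2, Nat.zero_xor, Nat.xor_comm, Nat.xor_xor_cancel_left]
            exact θ.trans' (θ.symm' (fnd_rel h k _)) (θ.trans' hz (fnd_rel h k _))
          · rw [Nat.xor_zero]
            exact h x
      · exact ih _ _ hs' h

/-- The closure contains the partition `q`. -/
def cov (n q p : ℕ) : Bool := allB n fun z => (fnd p n z).beq (fnd p n (gt q z))

/-- The pairs of a partition. -/
def prs (n q : ℕ) : List (ℕ × ℕ) := (List.range n).map fun z => (z, gt q z)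

/-- The checker. -/
def chk (n m : ℕ) (P : ℕ → ℕ) (F : List ℕ) (le : ℕ → ℕ → Bool) : Bool :=
  (1 : ℕ).ble n && (1 : ℕ).ble m && F.all (fun c => allB n fun x => (gt c x).blt n) &&
  allB m (fun a => allB n fun x =>
    (gt (P a) x).blt n && (gt (P a) (gt (P a) x)).beq (gt (P a) x) &&
    F.all fun c => (gt (P a) (gt c x)).beq (gt (P a) (gt c (gt (P a) x)))) &&
  allB m (fun a => allB m fun b =>
    (allB n fun x => (gt (P b) x).beq (gt (P b) (gt (P a) x))) == le a b) &&
  allB n (fun x => (gt (P 0) x).beq x) &&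
  allB n (fun x => allB x fun y => frc (clo F n (n * F.length + 1) [(x, y)] 0) fun p =>
    anyB m fun d => (gt (P d) x).beq (gt (P d) y) && cov n (P d) p) &&
  allB m fun a => allB m fun b => le a b || le b a ||
    frc (clo [] n (2 * n) (prs n (P a) ++ prs n (P b)) 0) fun p =>
      anyB m fun c => le a c && le b c && cov n (P c) p

theorem chk_urep {n m : ℕ} {P : ℕ → ℕ} {F : List ℕ} {le : ℕ → ℕ → Bool}
    (h : chk n m P F le = true) : URep fun a b : Fin m => le a b = true := by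
  simp only [chk, Bool.and_eq_true, allB_iff, anyB_iff, List.all_eq_true, Nat.ble_eq, Nat.blt_eq,
    Nat.beq_eq, frc_eq, Bool.or_eq_true, beq_iff_eq] at h
  obtain ⟨⟨⟨⟨⟨⟨⟨n1, m1⟩, c1⟩, c2⟩, c4⟩, c5⟩, c6⟩, c7⟩ := h
  let e : Fin m → Setoid (Fin n) := fun a => Setoid.ker fun x => gt (P a) x
  have he : ∀ a x y, e a x y ↔ gt (P a) x = gt (P a) y := fun _ _ _ => Iff.rfl
  have h1 : ∀ a b, e a ≤ e b ↔ le a b = true := fun a b => by
    rw [← c4 a a.2 b b.2, allB_iff]
    simp only [Nat.beq_eq]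
    exact ⟨fun h x hx => h (x := ⟨x, hx⟩) (y := ⟨_, (c2 a a.2 x hx).1.1⟩) (c2 a a.2 x hx).1.2.symm,
      fun h x y k => by rw [he, h x x.2, h y y.2, (he a x y).1 k]⟩
  refine ⟨Fin n, inferInstance, ⟨⟨0, n1⟩⟩, {c // c ∈ F}, inferInstance,
    fun c x => ⟨gt c x, c1 c c.2 x x.2⟩, e, h1, fun r => ⟨fun hr => ?_, ?_⟩⟩
  · let θ : Setoid ℕ := ⟨fun x y => x = y ∨ ∃ hx hy, r ⟨x, hx⟩ ⟨y, hy⟩, fun _ => Or.inl rfl,
      fun h => h.imp Eq.symm fun ⟨a, b, k⟩ => ⟨b, a, r.symm' k⟩, by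
        rintro x y z (rfl | ⟨a, b, k⟩) (rfl | ⟨c, d, l⟩)
        exacts [Or.inl rfl, Or.inr ⟨c, d, l⟩, Or.inr ⟨a, b, k⟩, Or.inr ⟨a, d, r.trans' k l⟩]⟩
    have t1 : ∀ x y : Fin n, θ x y ↔ r x y := fun x y =>
      ⟨fun h => h.elim (fun k => Fin.ext k ▸ r.refl' _) fun ⟨_, _, k⟩ => k,
        fun h => Or.inr ⟨x.2, y.2, h⟩⟩
    have tF : ∀ c ∈ F, ∀ a b, θ a b → θ (gt c a) (gt c b) := by
      rintro c hc a b (rfl | ⟨ha, hb, k⟩)
      exacts [Or.inl rfl, Or.inr ⟨_, _, hr ⟨c, hc⟩ _ _ k⟩]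
    have t2 : ∀ (d : Fin m) p, Inv θ p → cov n (P d) p = true → e d ≤ r := fun d p hp hc x y k => by
      simp only [cov, allB_iff, Nat.beq_eq] at hc
      refine (t1 x y).1 (θ.trans' (fnd_rel hp n x) (θ.symm' ?_))
      rw [hc x x.2, (he d x y).1 k, ← hc y y.2]
      exact fnd_rel hp n y
    have t3 : ∀ a : Fin m, e a ≤ r → ∀ z ∈ prs n (P a), θ z.1 z.2 := fun a ha z hz => by
      obtain ⟨x, hx, rfl⟩ := List.mem_map.1 hz
      have hx := List.mem_range.1 hx
      exact Or.inr ⟨hx, (c2 a a.2 x hx).1.1, ha (c2 a a.2 x hx).1.2.symm⟩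
    obtain ⟨a, ha, mx⟩ := (Set.toFinite {a | e a ≤ r}).exists_maximalFor e _ ⟨⟨0, m1⟩, fun x y k => by
      have k : gt (P 0) x = gt (P 0) y := k
      rw [c5 x x.2, c5 y y.2] at k
      exact Fin.ext k ▸ r.refl' _⟩
    have key : ∀ x y : Fin n, y < x → r x y → e a x y := fun x y l k => by
      obtain ⟨d, hd, d1, d2⟩ := c6 x x.2 y l
      have hd' : e ⟨d, hd⟩ ≤ r := t2 _ _ (clo_inv tF _ _ _ _
        (by simpa using (t1 x y).2 k) (inv_zero θ)) d2
      suffices e ⟨d, hd⟩ ≤ e a from this d1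
      rcases c7 a a.2 d hd with (k | k) | ⟨c, hc, ⟨k1, k2⟩, k3⟩
      · exact mx hd' ((h1 a ⟨d, hd⟩).2 k)
      · exact (h1 ⟨d, hd⟩ a).2 k
      · exact ((h1 ⟨d, hd⟩ ⟨c, hc⟩).2 k2).trans (mx (t2 ⟨c, hc⟩ _ (clo_inv (by simp) _ _ _ _
          (fun z hz => (List.mem_append.1 hz).elim (t3 a ha z) (t3 ⟨d, hd⟩ hd' z))
          (inv_zero θ)) k3) ((h1 a ⟨c, hc⟩).2 k1))
    refine ⟨a, le_antisymm ha fun x y k => ?_⟩
    rcases lt_trichotomy x y with l | rfl | l
    exacts [(e a).symm' (key y x l (r.symm' k)), (e a).refl' x, key x y l k]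
  · rintro ⟨a, rfl⟩ c x y k
    rw [he, (c2 a a.2 x x.2).2 c c.2, (c2 a a.2 y y.2).2 c c.2, (he a x y).1 k]

end Vale.Agent.P183B
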