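import Vale.Agent.P183B.Basic

/-! P183: the dual of a representable lattice is representable (Kurzweil, Netter). -/

namespace Vale.Agent.P183B

variable {X S : Type} [Group S]

/-- Functions that are constant on the classes. -/
def Kof (S : Type) [Group S] (r : Setoid X) : Subgroup (X → S) where
  carrier := {g | ∀ x y, r x y → g x = g y}
  mul_mem' := fun ha hb x y h => by rw [Pi.mul_apply, Pi.mul_apply, ha x y h, hb x y h]
  one_mem' := fun _ _ _ => rfl
  inv_mem' := fun ha x y h => by rw [Pi.inv_apply, Pi.inv_apply, ha x y h]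

open Classical in
/-- The function with value `s` on the class of `x`. -/
noncomputable def dl (r : Setoid X) (x : X) : S →* X → S where
  toFun s y := if r x y then s else 1
  map_one' := funext fun y => ite_self _
  map_mul' s t := funext fun y => by by_cases h : r x y <;> simp [h]

theorem dl_pos {r : Setoid X} {x y : X} (h : r x y) (s : S) : dl r x s y = s := if_pos h

theorem dl_neg {r : Setoid X} {x y : X} (h : ¬ r x y) (s : S) : dl r x s y = 1 := if_neg h

theorem dl_mem (r : Setoid X) (x : X) (s : S) : dl r x s ∈ Kof S r := fun y z h => by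
  by_cases k : r x y
  · rw [dl_pos k, dl_pos (r.trans' k h)]
  · rw [dl_neg k, dl_neg fun k' => k (r.trans' k' (r.symm' h))]

theorem Kof_le [Nontrivial S] {r s : Setoid X} : Kof S r ≤ Kof S s ↔ s ≤ r := by
  refine ⟨fun h x y k => ?_, fun h g hg x y k => hg x y (h k)⟩
  obtain ⟨t, ht⟩ := exists_ne (1 : S)
  have := h (dl_mem r x t) x y k
  by_contra n
  rw [dl_pos (r.refl' x), dl_neg n] at this
  exact ht this

/-- The points on which all elements of `K` agree. -/
def agr (K : Subgroup (X → S)) : Setoid X :=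
  ⟨fun x y => ∀ g ∈ K, g x = g y, fun _ _ _ => rfl, fun h g hg => (h g hg).symm,
    fun h k g hg => (h g hg).trans (k g hg)⟩

variable [IsSimpleGroup S] [Finite X]

theorem Kof_agr (hS : ∀ t : S, t ≠ 1 → ∃ s, t * s * t⁻¹ * s⁻¹ ≠ 1) {K : Subgroup (X → S)}
    (hK : ∀ s : S, (fun _ => s) ∈ K) : Kof S (agr K) = K := by
  classical
  have := Fintype.ofFinite X
  refine le_antisymm ?_ fun g hg x y h => h g hg
  have A : ∀ (x : X) (T : Finset X), ∃ g ∈ K, g x ≠ 1 ∧ ∀ y ∈ T, ¬ agr K x y → g y = 1 := by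
    intro x T
    induction T using Finset.induction_on with
    | empty =>
      obtain ⟨t, ht⟩ := exists_ne (1 : S)
      exact ⟨_, hK t, ht, by simp⟩
    | insert y T _ ih =>
      obtain ⟨g, g1, g2, g3⟩ := ih
      by_cases h : agr K x y
      · exact ⟨g, g1, g2, Finset.forall_mem_insert _ _ _ |>.2 ⟨fun k => absurd h k, g3⟩⟩
      let N : Subgroup S := (K ⊓ (Pi.evalMonoidHom _ y).ker).map (Pi.evalMonoidHom _ x)
      have hN : N.Normal := ⟨by
        rintro _ ⟨k, ⟨k1, k2⟩, rfl⟩ s
        refine ⟨(fun _ => s) * k * (fun _ => s)⁻¹, ⟨K.mul_mem (K.mul_mem (hK s) k1)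
          (K.inv_mem (hK s)), ?_⟩, rfl⟩
        have k2 : k y = 1 := k2
        change s * k y * s⁻¹ = 1
        simp [k2]⟩
      have top : N = ⊤ := hN.eq_bot_or_eq_top.resolve_left fun e => h fun k hk => by
        have : k x * (k y)⁻¹ ∈ N := ⟨k * (fun _ => k y)⁻¹, ⟨K.mul_mem hk (K.inv_mem (hK _)),
          mul_inv_cancel (k y)⟩, rfl⟩
        rw [e, Subgroup.mem_bot] at this
        exact mul_inv_eq_one.1 this
      obtain ⟨s, hs⟩ := hS _ g2
      obtain ⟨k, ⟨k1, k2⟩, rfl⟩ : s ∈ N := top ▸ Subgroup.mem_top s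
      have k2 : k y = 1 := k2
      refine ⟨g * k * g⁻¹ * k⁻¹, K.mul_mem (K.mul_mem (K.mul_mem g1 k1) (K.inv_mem g1))
        (K.inv_mem k1), hs, Finset.forall_mem_insert _ _ _ |>.2 ⟨fun _ => by simp [k2],
          fun z hz n => by simp [g3 z hz n]⟩⟩
  have B : ∀ x s, dl (agr K) x s ∈ K := fun x s => by
    have hN : (K.comap (dl (agr K) x)).Normal := ⟨fun t ht s => by
      have e : dl (agr K) x (s * t * s⁻¹) = (fun _ => s) * dl (agr K) x t * (fun _ => s)⁻¹ :=
        funext fun y => by by_cases h : agr K x y <;> simp [dl_pos, dl_neg, h]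
      exact show _ ∈ K from e ▸ K.mul_mem (K.mul_mem (hK s) ht) (K.inv_mem (hK s))⟩
    have top := hN.eq_bot_or_eq_top.resolve_left fun e => by
      obtain ⟨g, g1, g2, g3⟩ := A x Finset.univ
      have e2 : dl (agr K) x (g x) = g := funext fun y => by
        by_cases h : agr K x y
        · rw [dl_pos h, h g g1]
        · rw [dl_neg h, g3 y (Finset.mem_univ y) h]
      have : g x ∈ K.comap (dl (agr K) x) := show _ ∈ K from e2.symm ▸ g1
      rw [e, Subgroup.mem_bot] at this
      exact g2 this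
    exact show s ∈ K.comap (dl (agr K) x) from top ▸ Subgroup.mem_top s
  have C : ∀ T : Finset X, ∀ g ∈ Kof S (agr K), (∀ y, y ∉ T → g y = 1) → g ∈ K := by
    intro T
    induction T using Finset.induction_on with
    | empty => exact fun g _ h => (funext fun y => h y (by simp) : g = 1) ▸ K.one_mem
    | insert x T _ ih =>
      intro g hg h
      refine (K.mul_mem_cancel_right (K.inv_mem (B x (g x)))).1 (ih _ ((Kof S _).mul_mem hg
        ((Kof S _).inv_mem (dl_mem _ _ _))) fun y hy => ?_)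
      by_cases k : agr K x y
      · simp [dl_pos k, hg x y k]
      · simp [dl_neg k, h y fun m => (Finset.mem_insert.1 m).elim
          (fun e => k (e ▸ (agr K).refl' _)) hy]
  exact fun g hg => C Finset.univ g hg fun y hy => absurd (Finset.mem_univ y) hy

theorem URep.dual {L : Type} {le : L → L → Prop} (h : URep le) : URep fun a b => le b a := by
  obtain ⟨X, hX, hn, ι, hι, f, e, h1, h2⟩ := h
  let S := alternatingGroup (Fin 5)
  have hS : ∀ t : S, t ≠ 1 → ∃ s, t * s * t⁻¹ * s⁻¹ ≠ 1 := fun t ht => by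
    by_contra n
    push Not at n
    have : t ∈ Subgroup.center S := Subgroup.mem_center_iff.2 fun s =>
      (mul_inv_eq_iff_eq_mul.1 (mul_inv_eq_one.1 (n s))).symm
    rw [alternatingGroup.center_eq_bot (by simp), Subgroup.mem_bot] at this
    exact ht this
  refine urep_grp (X → S) (Kof S ⊤) ι
    (fun i => ⟨⟨fun g x => g (f i x), rfl⟩, fun _ _ => rfl⟩) (fun i g hg x y _ => hg _ _ trivial)
    (fun a => Kof S (e a)) (fun a b => Kof_le.trans (h1 b a)) fun K => ⟨fun ⟨k1, k2⟩ => ?_, ?_⟩
  · obtain ⟨a, ha⟩ := (h2 (agr K)).1 fun i x y h g hg => h _ (k2 i g hg)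
    exact ⟨a, by rw [ha, Kof_agr hS fun s => k1 fun _ _ _ => rfl]⟩
  · rintro ⟨a, rfl⟩
    exact ⟨Kof_le.2 le_top, fun i g hg x y h => hg _ _ ((h2 _).2 ⟨a, rfl⟩ i x y h)⟩

end Vale.Agent.P183B
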