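import Vale.Agent.P183B.Dual

/-! P183: duality for arbitrary finite algebras. -/

namespace Vale.Agent.P183B

open Vale.Agent.P183

theorem urep_of_rep {L : Type} [PartialOrder L] (h : Representable L) :
    URep (L := L) (· ≤ ·) := by
  classical
  obtain ⟨A, hA, hn, n, ar, op, ⟨e⟩⟩ := h
  refine ⟨A, hA, hn, Σ i : Fin n, Fin (ar i) × (Fin (ar i) → A), inferInstance,
    fun t y => op t.1 (Function.update t.2.2 t.2.1 y), fun a => (e.symm a).1,
    fun a b => e.symm.le_iff_le, fun r => ⟨fun hr => ⟨e ⟨r, fun i x y h => ?_⟩, by simp⟩, ?_⟩⟩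
  · have key : ∀ T : Finset (Fin (ar i)), r (op i x) (op i (T.piecewise y x)) := fun T => by
      induction T using Finset.induction_on with
      | empty => simp
      | insert j T hj ih =>
        refine r.trans' ih ?_
        have := hr ⟨i, j, T.piecewise y x⟩ _ _ (h j)
        dsimp only at this
        rwa [Function.update_eq_self_iff.2 (Finset.piecewise_eq_of_notMem _ _ _ hj).symm,
          ← Finset.piecewise_insert] at this
    simpa using key Finset.univ
  · rintro ⟨a, rfl⟩ t x y h
    refine (e.symm a).2 _ _ _ fun j => ?_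
    by_cases k : j = t.2.1
    · simpa [k] using h
    · simp [k]

theorem rep_dual {L : Type} [PartialOrder L] (h : Representable L) : Representable Lᵒᵈ :=
  URep.rep (L := Lᵒᵈ) (urep_of_rep h).dual

end Vale.Agent.P183B
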